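import Vale.Agent.P181.H303.Spec

/-!
P181, row BN of the analytic proof: Bernstein at a maximum.
-/

set_option autoImplicit false

namespace Vale.Agent.P181.H99.BN

open Finset Vale.Agent.P181.H303 Filter Topology

variable {a n : ℕ}

theorem lin_smul (c : ℂ) (u : EE n) : lin (c • u) = c • lin u := by
  simp [lin, Finset.smul_sum, mul_smul]

theorem lin_pow (b : ℕ) (u : EE n) : lin u ^ b =
    ∑ g : Fin b → Fin n, (∏ k, u (g k)) •
      ∏ k, (MvPolynomial.X (g k) : MvPolynomial (Fin n) ℂ) := by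
  have h : lin u ^ b = ∏ _k : Fin b, lin u := by simp
  rw [h]
  unfold lin
  rw [Finset.prod_univ_sum, Fintype.piFinset_univ]
  refine Finset.sum_congr rfl fun g _ => ?_
  simp only [MvPolynomial.smul_eq_C_mul, Finset.prod_mul_distrib, map_prod]

theorem cont (F : MultilinearMap ℂ (fun _ : Fin a => MvPolynomial (Fin n) ℂ) ℂ) (b : ℕ) :
    Continuous fun u : Fin a → EE n => F (fun i => lin (u i) ^ b) := by
  have h : (fun u : Fin a → EE n => F (fun i => lin (u i) ^ b)) = fun u =>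
      ∑ r : Fin a → (Fin b → Fin n), (∏ i, ∏ k, u i (r i k)) •
        F (fun i => ∏ k, (MvPolynomial.X (r i k) : MvPolynomial (Fin n) ℂ)) := by
    funext u
    simp_rw [lin_pow]
    rw [F.map_sum]
    refine Finset.sum_congr rfl fun r _ => ?_
    rw [← F.map_smul_univ]
  rw [h]
  fun_prop

theorem homog (F : MultilinearMap ℂ (fun _ : Fin a => MvPolynomial (Fin n) ℂ) ℂ) (b : ℕ)
    (hb : 1 ≤ b) (μ : ℝ) (hμ0 : 0 ≤ μ)
    (hμ : ∀ u : Fin a → EE n, (∀ i, ‖u i‖ = 1) → ‖F (fun i => lin (u i) ^ b)‖ ≤ μ)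
    (u : Fin a → EE n) : ‖F (fun i => lin (u i) ^ b)‖ ≤ μ * ∏ i, ‖u i‖ ^ b := by
  by_cases h : ∃ i, u i = 0
  · obtain ⟨i, hi⟩ := h
    have h0 : F (fun i => lin (u i) ^ b) = 0 := by
      refine F.map_coord_zero i ?_
      have : lin (u i) = 0 := by simp [hi, lin]
      rw [this]
      exact zero_pow (by omega)
    rw [h0, norm_zero]
    positivity
  · push Not at h
    have h1 : (fun i => lin (u i) ^ b) =
        fun i => ((‖u i‖ : ℂ) ^ b) • lin ((‖u i‖ : ℂ)⁻¹ • u i) ^ b := by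
      funext i
      have hne : (‖u i‖ : ℂ) ≠ 0 := by
        exact_mod_cast norm_ne_zero_iff.mpr (h i)
      rw [lin_smul, smul_pow, smul_smul, ← mul_pow, mul_inv_cancel₀ hne, one_pow, one_smul]
    rw [h1, F.map_smul_univ, norm_smul]
    have h2 : ‖∏ i, (‖u i‖ : ℂ) ^ b‖ = ∏ i, ‖u i‖ ^ b := by
      rw [norm_prod]
      refine Finset.prod_congr rfl fun i _ => ?_
      rw [norm_pow, Complex.norm_real, norm_norm]
    rw [h2, mul_comm]
    refine mul_le_mul_of_nonneg_right (hμ _ fun i => ?_) (by positivity)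
    rw [norm_smul, norm_inv, Complex.norm_real, norm_norm]
    exact inv_mul_cancel₀ (norm_ne_zero_iff.mpr (h i))

/-- Norm along the curve. -/
theorem norm_curve (x e : EE n) (hx : ‖x‖ = 1) (he : ‖e‖ = 1) (z : ℂ) :
    ‖x + ((z - 1) * inner ℂ e x) • e‖ ^ 2 = 1 + (‖z‖ ^ 2 - 1) * ‖inner ℂ e x‖ ^ 2 := by
  rw [@norm_add_sq ℂ, hx, inner_smul_right, norm_smul, he, norm_mul]
  have h1 : inner ℂ x e = (starRingEnd ℂ) (inner ℂ e x) := (inner_conj_symm x e).symm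
  rw [h1, mul_assoc, Complex.mul_conj]
  have h2 : (RCLike.re ((z - 1) * ((Complex.normSq (inner ℂ e x) : ℝ) : ℂ)) : ℝ) =
      (z.re - 1) * Complex.normSq (inner ℂ e x) := by
    simp
  rw [h2, Complex.normSq_eq_norm_sq]
  have h3 : ‖z - 1‖ ^ 2 = ‖z‖ ^ 2 - 2 * z.re + 1 := by
    rw [← Complex.normSq_eq_norm_sq, ← Complex.normSq_eq_norm_sq, Complex.normSq_apply,
      Complex.normSq_apply]
    simp
    ring
  rw [mul_one, mul_pow, h3]
  ring

theorem outside (p : Polynomial ℂ) (N : ℕ) (hp : p.natDegree ≤ N) (μ : ℝ)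
    (hc : ∀ z : ℂ, ‖z‖ = 1 → ‖p.eval z‖ ≤ μ) (z : ℂ) (hz : 1 ≤ ‖z‖) :
    ‖p.eval z‖ ≤ μ * ‖z‖ ^ N := by
  have hz0 : z ≠ 0 := by
    rintro rfl
    simp at hz
    linarith
  have hrev : ∀ w : ℂ, w ≠ 0 → p.eval w = (p.reflect N).eval w⁻¹ * w ^ N := by
    intro w hw
    let := invertibleOfNonzero hw
    have := Polynomial.eval₂_reflect_mul_pow (RingHom.id ℂ) w N p hp
    simpa [Polynomial.eval₂_id, invOf_eq_inv] using this.symm
  have hq : ‖(p.reflect N).eval z⁻¹‖ ≤ μ := by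
    refine Complex.norm_le_of_forall_mem_frontier_norm_le (U := Metric.ball 0 1)
      Metric.isBounded_ball (f := fun w => (p.reflect N).eval w)
      (p.reflect N).differentiable.diffContOnCl ?_ ?_
    · intro w hw
      rw [frontier_ball _ one_ne_zero, mem_sphere_zero_iff_norm] at hw
      have hw0 : w ≠ 0 := by
        rintro rfl
        simp at hw
      have h1 := hrev w⁻¹ (inv_ne_zero hw0)
      rw [inv_inv] at h1
      have h2 := hc w⁻¹ (by rw [norm_inv, hw, inv_one])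
      rw [h1, norm_mul, norm_pow, norm_inv, hw, inv_one, one_pow, mul_one] at h2
      exact h2
    · rw [closure_ball _ one_ne_zero, mem_closedBall_zero_iff, norm_inv]
      exact inv_le_one_of_one_le₀ hz
  rw [hrev z hz0, norm_mul, norm_pow]
  exact mul_le_mul_of_nonneg_right hq (by positivity)

theorem key (F : MultilinearMap ℂ (fun _ : Fin a => MvPolynomial (Fin n) ℂ) ℂ) (b N : ℕ)
    (hb : 1 ≤ b) (x : Fin a → EE n) (hx : ∀ i, ‖x i‖ = 1) (μ : ℝ) (hμ0 : 0 < μ)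
    (hμx : ‖F (fun i => lin (x i) ^ b)‖ = μ)
    (hμ : ∀ u : Fin a → EE n, (∀ i, ‖u i‖ = 1) → ‖F (fun i => lin (u i) ^ b)‖ ≤ μ)
    (e : EE n) (he : ‖e‖ = 1) (p : Polynomial ℂ) (hp : p.natDegree ≤ N)
    (hpz : ∀ z : ℂ, z ≠ 0 →
      F (fun i => lin (x i + ((z - 1) * inner ℂ e (x i)) • e) ^ b) = p.eval z) :
    (b : ℝ) * ∑ i, ‖inner ℂ e (x i)‖ ^ 2 ≤ N := by
  set B : ℝ := (b : ℝ) * ∑ i, ‖inner ℂ e (x i)‖ ^ 2 with hB
  have hc : ∀ z : ℂ, ‖z‖ = 1 → ‖p.eval z‖ ≤ μ := by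
    intro z hz
    have hz0 : z ≠ 0 := by
      rintro rfl
      simp at hz
    rw [← hpz z hz0]
    refine hμ _ fun i => ?_
    have h := norm_curve (x i) e (hx i) he z
    rw [hz] at h
    have h2 : ‖x i + ((z - 1) * inner ℂ e (x i)) • e‖ ^ 2 = 1 := by rw [h]; ring
    nlinarith [norm_nonneg (x i + ((z - 1) * inner ℂ e (x i)) • e)]
  have h1 : ‖p.eval 1‖ = μ := by
    rw [← hpz 1 one_ne_zero]
    simpa using hμx
  have hexp : ∀ s : ℝ, -1 / 2 < s → ‖p.eval ((1 + s : ℝ) : ℂ)‖ ^ 2 ≤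
      μ ^ 2 * Real.exp (B * ((1 + s) ^ 2 - 1)) := by
    intro s hs
    have hz0 : ((1 + s : ℝ) : ℂ) ≠ 0 := by
      rw [Ne, Complex.ofReal_eq_zero]
      intro h
      linarith
    rw [← hpz _ hz0]
    have h := homog F b hb μ hμ0.le hμ
      (fun i => x i + ((((1 + s : ℝ) : ℂ) - 1) * inner ℂ e (x i)) • e)
    calc ‖F (fun i => lin (x i + ((((1 + s : ℝ) : ℂ) - 1) * inner ℂ e (x i)) • e) ^ b)‖ ^ 2
        ≤ (μ * ∏ i, ‖x i + ((((1 + s : ℝ) : ℂ) - 1) * inner ℂ e (x i)) • e‖ ^ b) ^ 2 := by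
          gcongr
      _ = μ ^ 2 * ∏ i, (‖x i + ((((1 + s : ℝ) : ℂ) - 1) * inner ℂ e (x i)) • e‖ ^ 2) ^ b := by
          rw [mul_pow, ← Finset.prod_pow]
          congr 1
          refine Finset.prod_congr rfl fun i _ => ?_
          rw [← pow_mul, ← pow_mul, mul_comm b 2]
      _ ≤ μ ^ 2 * ∏ i, (Real.exp (((1 + s) ^ 2 - 1) * ‖inner ℂ e (x i)‖ ^ 2)) ^ b := by
          gcongr with i _
          rw [norm_curve (x i) e (hx i) he, Complex.norm_real, Real.norm_eq_abs, sq_abs]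
          have := Real.add_one_le_exp (((1 + s) ^ 2 - 1) * ‖inner ℂ e (x i)‖ ^ 2)
          linarith
      _ = μ ^ 2 * Real.exp (B * ((1 + s) ^ 2 - 1)) := by
          congr 1
          rw [Finset.prod_congr rfl (fun i _ => (Real.exp_nat_mul _ _).symm), ← Real.exp_sum]
          congr 1
          rw [hB, ← Finset.mul_sum, ← Finset.mul_sum]
          ring
  have hout : ∀ s : ℝ, 0 ≤ s → ‖p.eval ((1 + s : ℝ) : ℂ)‖ ^ 2 ≤ μ ^ 2 * (1 + s) ^ (2 * N) := by
    intro s hs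
    have hn : ‖((1 + s : ℝ) : ℂ)‖ = 1 + s := by
      rw [Complex.norm_real, Real.norm_eq_abs, abs_of_nonneg (by linarith)]
    have h := outside p N hp μ hc ((1 + s : ℝ) : ℂ) (by rw [hn]; linarith)
    rw [hn] at h
    calc ‖p.eval ((1 + s : ℝ) : ℂ)‖ ^ 2 ≤ (μ * (1 + s) ^ N) ^ 2 := by gcongr
      _ = _ := by rw [mul_pow, ← pow_mul, mul_comm N 2]
  have hdiff : DifferentiableAt ℝ (fun s : ℝ => ‖p.eval ((1 + s : ℝ) : ℂ)‖ ^ 2) 0 := by
    have h2 : DifferentiableAt ℝ (fun s : ℝ => p.eval ((1 + s : ℝ) : ℂ)) 0 := by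
      have h3 : DifferentiableAt ℂ (fun z : ℂ => p.eval z) ((1 + 0 : ℝ) : ℂ) :=
        p.differentiable.differentiableAt
      have h4 : DifferentiableAt ℝ (fun s : ℝ => ((1 + s : ℝ) : ℂ)) 0 := by
        have : (fun s : ℝ => ((1 + s : ℝ) : ℂ)) = fun s : ℝ => 1 + (s : ℂ) := by
          funext s
          push_cast
          rfl
        rw [this]
        exact (differentiableAt_const _).add Complex.ofRealCLM.differentiableAt
      exact DifferentiableAt.comp (g := fun z : ℂ => p.eval z)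
        (f := fun s : ℝ => ((1 + s : ℝ) : ℂ)) (0 : ℝ) (h3.restrictScalars ℝ) h4
    exact h2.norm_sq ℝ
  obtain ⟨d, hd⟩ : ∃ d, HasDerivAt (fun s : ℝ => ‖p.eval ((1 + s : ℝ) : ℂ)‖ ^ 2) d 0 :=
    ⟨_, hdiff.hasDerivAt⟩
  have hs0 : ‖p.eval ((1 + 0 : ℝ) : ℂ)‖ ^ 2 = μ ^ 2 := by
    have : ((1 + 0 : ℝ) : ℂ) = 1 := by norm_num
    rw [this, h1]
  have hE : HasDerivAt (fun s : ℝ => μ ^ 2 * Real.exp (B * ((1 + s) ^ 2 - 1)))
      (μ ^ 2 * (2 * B)) 0 := by
    have h2 : HasDerivAt (fun s : ℝ => 1 + s) 1 0 := (hasDerivAt_id 0).const_add 1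
    have h3 := (((h2.pow 2).sub_const 1).const_mul B).exp.const_mul (μ ^ 2)
    refine h3.congr_deriv ?_
    have h0 : B * (((1 : ℝ) + 0) ^ 2 - 1) = 0 := by ring
    change μ ^ 2 * (Real.exp (B * ((1 + 0) ^ 2 - 1)) *
      (B * (((2 : ℕ) : ℝ) * (1 + 0) ^ (2 - 1) * 1))) = μ ^ 2 * (2 * B)
    rw [h0, Real.exp_zero]
    push_cast
    ring
  have hP : HasDerivAt (fun s : ℝ => μ ^ 2 * (1 + s) ^ (2 * N)) (μ ^ 2 * (2 * N)) 0 := by
    have h2 : HasDerivAt (fun s : ℝ => 1 + s) 1 0 := (hasDerivAt_id 0).const_add 1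
    have h3 := (h2.pow (2 * N)).const_mul (μ ^ 2)
    refine h3.congr_deriv ?_
    simp
  have hd1 : d = μ ^ 2 * (2 * B) := by
    have hmin : IsLocalMin (fun s : ℝ => μ ^ 2 * Real.exp (B * ((1 + s) ^ 2 - 1)) -
        ‖p.eval ((1 + s : ℝ) : ℂ)‖ ^ 2) 0 := by
      have hev : ∀ᶠ s : ℝ in 𝓝 0, -1 / 2 < s := lt_mem_nhds (by norm_num)
      filter_upwards [hev] with s hs
      have h2 := hexp s hs
      have h0 : B * (((1 : ℝ) + 0) ^ 2 - 1) = 0 := by ring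
      change μ ^ 2 * Real.exp (B * ((1 + 0) ^ 2 - 1)) - ‖p.eval ((1 + 0 : ℝ) : ℂ)‖ ^ 2 ≤ _
      rw [hs0, h0, Real.exp_zero]
      linarith
    have h2 := hmin.hasDerivAt_eq_zero (hE.sub hd)
    linarith
  have hd2 : 0 ≤ μ ^ 2 * (2 * N) - d := by
    have h2 := (hP.sub hd).tendsto_slope_zero_right
    refine ge_of_tendsto h2 ?_
    filter_upwards [self_mem_nhdsWithin] with s hs
    have hs' : 0 < s := hs
    have h3 := hout s hs'.le
    simp only [zero_add, smul_eq_mul, Pi.sub_apply, hs0]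
    have h4 : 0 ≤ s⁻¹ := by positivity
    refine mul_nonneg h4 ?_
    have h5 : μ ^ 2 * (1 + (0 : ℝ)) ^ (2 * N) = μ ^ 2 := by simp
    rw [h5]
    linarith
  have hμ2 : 0 < μ ^ 2 := by positivity
  nlinarith

theorem rowBN : RowBN := by
  intro a b n N F ha hb hpoly hne
  -- maximum
  have hK : IsCompact (Set.pi Set.univ (fun _ : Fin a => Metric.sphere (0 : EE (n + 1)) 1)) :=
    isCompact_univ_pi fun _ => isCompact_sphere _ _
  have hKne : (Set.pi Set.univ (fun _ : Fin a => Metric.sphere (0 : EE (n + 1)) 1)).Nonempty := by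
    refine ⟨fun _ => EuclideanSpace.single 0 1, ?_⟩
    intro i _
    simp
  obtain ⟨x, hxK, hxmax⟩ := hK.exists_isMaxOn hKne (cont F b).norm.continuousOn
  have hx : ∀ i, ‖x i‖ = 1 := fun i => by simpa using hxK i (Set.mem_univ i)
  have hmax : ∀ u : Fin a → EE (n + 1), (∀ i, ‖u i‖ = 1) →
      ‖F (fun i => lin (u i) ^ b)‖ ≤ ‖F (fun i => lin (x i) ^ b)‖ := by
    intro u hu
    exact hxmax (fun i _ => by simpa using hu i)
  have hpos : 0 < ‖F (fun i => lin (x i) ^ b)‖ := by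
    obtain ⟨u, hu⟩ := hne
    by_contra hcon
    have h0 : ‖F (fun i => lin (x i) ^ b)‖ = 0 := le_antisymm (not_lt.mp hcon) (norm_nonneg _)
    have h1 := homog F b hb 0 le_rfl (fun v hv => (hmax v hv).trans h0.le) u
    rw [zero_mul] at h1
    exact hu (norm_le_zero_iff.mp h1)
  refine ⟨x, hx, hpos, hmax, ?_⟩
  have hkey1 : ∀ e : EE (n + 1), ‖e‖ = 1 → e 0 ≠ 0 →
      (b : ℝ) * ∑ i, ‖inner ℂ e (x i)‖ ^ 2 ≤ N := by
    intro e he he0
    obtain ⟨p, hp, hpz⟩ := hpoly x e he he0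
    exact key F b N hb x hx _ hpos rfl hmax e he p hp hpz
  have hkey2 : ∀ e : EE (n + 1), e 0 ≠ 0 →
      (b : ℝ) * ∑ i, ‖inner ℂ e (x i)‖ ^ 2 ≤ N * ‖e‖ ^ 2 := by
    intro e he0
    have hne : e ≠ 0 := by
      rintro rfl
      simp at he0
    have hn : 0 < ‖e‖ := norm_pos_iff.mpr hne
    have h1 := hkey1 (((‖e‖⁻¹ : ℝ) : ℂ) • e) (by
      rw [norm_smul, Complex.norm_real, norm_inv, norm_norm]
      exact inv_mul_cancel₀ hn.ne') (by
      simp only [PiLp.smul_apply, smul_eq_mul]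
      exact mul_ne_zero (by exact_mod_cast (inv_pos.mpr hn).ne') he0)
    have h2 : ∀ i, ‖inner ℂ (((‖e‖⁻¹ : ℝ) : ℂ) • e) (x i)‖ ^ 2 =
        (‖e‖⁻¹) ^ 2 * ‖inner ℂ e (x i)‖ ^ 2 := by
      intro i
      rw [inner_smul_left, norm_mul, RCLike.norm_conj, Complex.norm_real, norm_inv, norm_norm,
        mul_pow]
    simp_rw [h2] at h1
    rw [← Finset.mul_sum] at h1
    have h3 : (b : ℝ) * ∑ i, ‖inner ℂ e (x i)‖ ^ 2 =
        ‖e‖ ^ 2 * ((b : ℝ) * (‖e‖⁻¹ ^ 2 * ∑ i, ‖inner ℂ e (x i)‖ ^ 2)) := by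
      field_simp
    rw [h3, mul_comm (N : ℝ)]
    exact mul_le_mul_of_nonneg_left h1 (by positivity)
  intro e he
  by_cases he0 : e 0 = 0
  · have hcont1 : Continuous fun t : ℝ => (b : ℝ) * ∑ i, ‖inner ℂ (e + (t : ℂ) •
        (EuclideanSpace.single 0 1 : EE (n + 1))) (x i)‖ ^ 2 := by fun_prop
    have hcont2 : Continuous fun t : ℝ => (N : ℝ) * ‖e + (t : ℂ) •
        (EuclideanSpace.single 0 1 : EE (n + 1))‖ ^ 2 := by fun_prop
    have ht1 := (hcont1.tendsto 0).mono_left (nhdsWithin_le_nhds (s := {0}ᶜ))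
    have ht2 := (hcont2.tendsto 0).mono_left (nhdsWithin_le_nhds (s := {0}ᶜ))
    have hle := le_of_tendsto_of_tendsto ht1 ht2 (by
      filter_upwards [self_mem_nhdsWithin] with t ht
      refine hkey2 _ ?_
      simp only [PiLp.add_apply, PiLp.smul_apply, he0, zero_add, smul_eq_mul]
      simpa using ht)
    simpa [he] using hle
  · have := hkey2 e he0
    rw [he] at this
    simpa using this

end Vale.Agent.P181.H99.BN
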